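import Vale.Agent.Lib.P201.Extension

/-!
# P201: the zero-divisor conjecture passes to extensions by unique-product groups
-/

namespace Vale.Agent.Results.P201.AExtensionUniqueProduct

theorem result (K : Type) [Field K] (G : Type) [Group G] (N : Subgroup G) [N.Normal]
    (hN : NoZeroDivisors (MonoidAlgebra K N)) (hQ : UniqueProds (G ⧸ N)) :
    ∀ a b : MonoidAlgebra K G, a * b = 0 → a = 0 ∨ b = 0 := by
  intro a b hab
  have h : NoZeroDivisors (MonoidAlgebra K G) :=
    Vale.Agent.Lib.P201.noZeroDivisors_of_extension N
  exact h.eq_zero_or_eq_zero_of_mul_eq_zero hab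

end Vale.Agent.Results.P201.AExtensionUniqueProduct
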